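import Vale.Agent.P193.CompTools

namespace Vale.Agent.P193

section Cert

variable {A : Type}

/-- the word spelled by a certificate: a product of conjugates `g r g⁻¹` -/
def certW (c : List (List (A × Bool) × List (A × Bool))) : List (A × Bool) :=
  c.flatMap (fun x => x.1 ++ x.2 ++ FreeGroup.invRev x.1)

/-- a certificate is valid for the relator list `Rs` if all its relators are in `Rs` or are
inverses of members of `Rs` -/
def certOK (Rs : List (List (A × Bool))) (c : List (List (A × Bool) × List (A × Bool))) : Prop :=
  ∀ x ∈ c, x.2 ∈ Rs ∨ FreeGroup.invRev x.2 ∈ Rs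

theorem certW_nil : certW ([] : List (List (A × Bool) × List (A × Bool))) = [] := rfl

theorem certW_cons (x : List (A × Bool) × List (A × Bool))
    (c : List (List (A × Bool) × List (A × Bool))) :
    certW (x :: c) = (x.1 ++ x.2 ++ FreeGroup.invRev x.1) ++ certW c := by
  simp [certW]

theorem certW_append (c c' : List (List (A × Bool) × List (A × Bool))) :
    certW (c ++ c') = certW c ++ certW c' := by
  simp [certW]

theorem mk_certW_cons (x : List (A × Bool) × List (A × Bool))
    (c : List (List (A × Bool) × List (A × Bool))) :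
    FreeGroup.mk (certW (x :: c)) =
      FreeGroup.mk x.1 * FreeGroup.mk x.2 * (FreeGroup.mk x.1)⁻¹ * FreeGroup.mk (certW c) := by
  rw [certW_cons, ← FreeGroup.mul_mk, ← FreeGroup.mul_mk, ← FreeGroup.mul_mk, FreeGroup.inv_mk]

/-- the set of relators as a subset of the free group -/
def relSet (Rs : List (List (A × Bool))) : Set (FreeGroup A) := {g | ∃ r ∈ Rs, g = FreeGroup.mk r}

theorem mk_certW_mem (Rs : List (List (A × Bool)))
    (c : List (List (A × Bool) × List (A × Bool))) (hc : certOK Rs c) :
    FreeGroup.mk (certW c) ∈ Subgroup.normalClosure (relSet Rs) := by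
  induction c with
  | nil => exact Subgroup.one_mem _
  | cons x c ih =>
    rw [mk_certW_cons]
    refine Subgroup.mul_mem _ ?_ (ih (fun y hy => hc y (List.mem_cons_of_mem _ hy)))
    apply Subgroup.normalClosure_normal.conj_mem
    rcases hc x List.mem_cons_self with h | h
    · exact Subgroup.subset_normalClosure ⟨x.2, h, rfl⟩
    · have h1 : FreeGroup.mk (FreeGroup.invRev x.2) ∈ Subgroup.normalClosure (relSet Rs) :=
        Subgroup.subset_normalClosure ⟨_, h, rfl⟩
      rw [← FreeGroup.inv_mk] at h1
      exact (Subgroup.inv_mem_iff _).1 h1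

/-- inverse certificate -/
def certInv (c : List (List (A × Bool) × List (A × Bool))) :
    List (List (A × Bool) × List (A × Bool)) :=
  (c.map (fun x => (x.1, FreeGroup.invRev x.2))).reverse

theorem mk_certInv (c : List (List (A × Bool) × List (A × Bool))) :
    FreeGroup.mk (certW (certInv c)) = (FreeGroup.mk (certW c))⁻¹ := by
  induction c with
  | nil => simp [certInv, certW]
  | cons x c ih =>
    have h1 : certInv (x :: c) = certInv c ++ [(x.1, FreeGroup.invRev x.2)] := by
      simp [certInv]
    rw [h1, certW_append, ← FreeGroup.mul_mk, ih, mk_certW_cons, mk_certW_cons, certW_nil]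
    have h2 : FreeGroup.mk ([] : List (A × Bool)) = 1 := rfl
    rw [h2, ← FreeGroup.inv_mk]
    group

theorem certOK_certInv (Rs : List (List (A × Bool)))
    (c : List (List (A × Bool) × List (A × Bool))) (hc : certOK Rs c) : certOK Rs (certInv c) := by
  intro y hy
  simp only [certInv, List.mem_reverse, List.mem_map] at hy
  obtain ⟨x, hx, rfl⟩ := hy
  rcases hc x hx with h | h
  · right
    simpa [FreeGroup.invRev_invRev] using h
  · left
    exact h

theorem exists_cert [DecidableEq A] (Rs : List (List (A × Bool))) (g : FreeGroup A)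
    (hg : g ∈ Subgroup.normalClosure (relSet Rs)) :
    ∃ c, certOK Rs c ∧ g = FreeGroup.mk (certW c) := by
  unfold Subgroup.normalClosure at hg
  induction hg using Subgroup.closure_induction with
  | mem x hx =>
    rw [Group.mem_conjugatesOfSet_iff] at hx
    obtain ⟨s, ⟨r, hr, rfl⟩, hconj⟩ := hx
    rw [isConj_iff] at hconj
    obtain ⟨h, rfl⟩ := hconj
    refine ⟨[(h.toWord, r)], ?_, ?_⟩
    · intro y hy
      simp only [List.mem_singleton] at hy
      subst hy
      exact Or.inl hr
    · rw [mk_certW_cons, certW_nil, FreeGroup.mk_toWord]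
      have h2 : FreeGroup.mk ([] : List (A × Bool)) = 1 := rfl
      rw [h2, mul_one]
  | one => exact ⟨[], fun _ h => absurd h List.not_mem_nil, rfl⟩
  | mul x y _ _ hx hy =>
    obtain ⟨c, hc, rfl⟩ := hx
    obtain ⟨c', hc', rfl⟩ := hy
    refine ⟨c ++ c', ?_, ?_⟩
    · intro z hz
      rcases List.mem_append.1 hz with h | h
      · exact hc z h
      · exact hc' z h
    · rw [certW_append, FreeGroup.mul_mk]
  | inv x _ hx =>
    obtain ⟨c, hc, rfl⟩ := hx
    exact ⟨certInv c, certOK_certInv Rs c hc, (mk_certInv c).symm⟩

/-- Membership in the normal closure of finitely many relators is witnessed by certificates. -/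
theorem mem_normalClosure_iff [DecidableEq A] (Rs : List (List (A × Bool))) (v : List (A × Bool)) :
    FreeGroup.mk v ∈ Subgroup.normalClosure (relSet Rs) ↔
      ∃ c, certOK Rs c ∧ FreeGroup.reduce v = FreeGroup.reduce (certW c) := by
  constructor
  · intro h
    obtain ⟨c, hc, he⟩ := exists_cert Rs _ h
    exact ⟨c, hc, FreeGroup.reduce.sound he⟩
  · rintro ⟨c, hc, he⟩
    rw [FreeGroup.reduce.exact he]
    exact mk_certW_mem Rs c hc

end Cert

end Vale.Agent.P193
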