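import Vale.Agent.P193.Cert

namespace Vale.Agent.P193

open Primrec

section RE

variable {α β : Type*} [Primcodable α] [Primcodable β]

/-- Projections of computable relations are recursively enumerable. -/
theorem re_exists {P : α → β → Prop} (hP : ComputablePred fun x : α × β => P x.1 x.2) :
    REPred fun a => ∃ b, P a b := by
  obtain ⟨f, hf, hPf⟩ := ComputablePred.computable_iff.1 hP
  have hPf' : ∀ a b, P a b ↔ f (a, b) = true := fun a b => by
    have := congrFun hPf (a, b)
    simpa using this
  let p : α → ℕ → Bool := fun a n =>
    Option.casesOn (Encodable.decode (α := β) n) false (fun b => f (a, b))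
  have hp : Computable₂ p := by
    refine Computable.option_casesOn (o := fun x : α × ℕ => Encodable.decode (α := β) x.2)
      (f := fun _ => false) (g := fun x b => f (x.1, b))
      (Computable.decode.comp Computable.snd) (Computable.const false) ?_
    exact hf.comp (Computable.pair (Computable.fst.comp Computable.fst) Computable.snd)
  have hF : Partrec fun a => Nat.rfind (fun n => Part.some (p a n)) :=
    Partrec.rfind (p := fun a n => Part.some (p a n)) hp.partrec₂
  refine hF.dom_re.of_eq ?_
  intro a
  refine Iff.trans (Nat.rfind_dom (p := fun n => Part.some (p a n))) ?_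
  constructor
  · rintro ⟨n, hn, _⟩
    have hn' : p a n = true := by simpa using hn
    simp only [p] at hn'
    cases hd : Encodable.decode (α := β) n with
    | none => rw [hd] at hn'; simp at hn'
    | some b =>
      rw [hd] at hn'
      exact ⟨b, (hPf' a b).2 hn'⟩
  · rintro ⟨b, hb⟩
    refine ⟨Encodable.encode b, ?_, fun _ => trivial⟩
    have : p a (Encodable.encode b) = true := by
      simp only [p, Encodable.encodek]
      exact (hPf' a b).1 hb
    simp [this]

end RE

section Words

variable {A : Type} [DecidableEq A] [Primcodable A]

def stepR (x : (A × Bool) × List (A × Bool)) : List (A × Bool) :=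
  List.casesOn x.2 [x.1] fun hd tl =>
    if x.1.1 = hd.1 ∧ x.1.2 = not hd.2 then tl else x.1 :: hd :: tl

omit [Primcodable A] in
theorem reduce_eq_foldr (L : List (A × Bool)) :
    FreeGroup.reduce L = L.foldr (fun b s => stepR (b, s)) [] := by
  induction L with
  | nil => rfl
  | cons x L ih =>
    rw [FreeGroup.reduce.cons, List.foldr_cons, ← ih]
    rfl

theorem primrec_stepR : Primrec (stepR : (A × Bool) × List (A × Bool) → List (A × Bool)) := by
  unfold stepR
  refine list_casesOn (f := fun x : (A × Bool) × List (A × Bool) => x.2)
    (g := fun x => [x.1])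
    (h := fun x y => if x.1.1 = y.1.1 ∧ x.1.2 = not y.1.2 then y.2 else x.1 :: y.1 :: y.2)
    snd (list_cons.comp fst (const [])) ?_
  refine Primrec.ite ?_ (snd.comp snd) ?_
  · refine PrimrecPred.and ?_ ?_
    · exact Primrec.eq.comp (fst.comp (fst.comp fst)) (fst.comp (fst.comp snd))
    · exact Primrec.eq.comp (snd.comp (fst.comp fst)) (Primrec.not.comp (snd.comp (fst.comp snd)))
  · exact list_cons.comp (fst.comp fst) (list_cons.comp (fst.comp snd) (snd.comp snd))

theorem primrec_reduce : Primrec (FreeGroup.reduce : List (A × Bool) → List (A × Bool)) := by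
  have h : Primrec fun L : List (A × Bool) => L.foldr (fun b s => stepR (b, s)) [] :=
    list_foldr (f := fun L : List (A × Bool) => L) (g := fun _ => ([] : List (A × Bool)))
      (h := fun _ x => stepR x) Primrec.id (const []) (primrec_stepR.comp snd)
  exact h.of_eq (fun L => (reduce_eq_foldr L).symm)

omit [DecidableEq A] in
theorem primrec_invRev' : Primrec (FreeGroup.invRev : List (A × Bool) → List (A × Bool)) := by
  unfold FreeGroup.invRev
  refine list_reverse.comp (list_map Primrec.id ?_)
  exact Primrec.pair (fst.comp snd) (Primrec.not.comp (snd.comp snd))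

omit [DecidableEq A] in
theorem primrec_certW :
    Primrec (certW : List (List (A × Bool) × List (A × Bool)) → List (A × Bool)) := by
  unfold certW
  refine list_flatMap Primrec.id ?_
  exact list_append.comp (list_append.comp (fst.comp snd) (snd.comp snd))
    (primrec_invRev'.comp (fst.comp snd))

omit [DecidableEq A] in
theorem primrecRel_mem {γ : Type*} [Primcodable γ] :
    PrimrecRel fun (a : γ) (l : List γ) => a ∈ l := by
  have h : PrimrecRel fun (l : List γ) (a : γ) => ∃ b ∈ l, b = a :=
    PrimrecRel.exists_mem_list Primrec.eq
  exact (h.comp snd fst).of_eq (fun x => by simp)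

omit [DecidableEq A] in
theorem primrecRel_certOK : PrimrecRel (certOK (A := A)) := by
  unfold certOK
  have hR : PrimrecRel fun (x : List (A × Bool) × List (A × Bool)) (Rs : List (List (A × Bool))) =>
      x.2 ∈ Rs ∨ FreeGroup.invRev x.2 ∈ Rs := by
    refine PrimrecPred.or ?_ ?_
    · exact primrecRel_mem.comp (snd.comp fst) snd
    · exact primrecRel_mem.comp (primrec_invRev'.comp (snd.comp fst)) snd
  exact (hR.forall_mem_list.comp snd fst)

/-- The word problem of finite presentations is recursively enumerable, uniformly in the
presentation. -/
theorem re_normalClosure :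
    REPred fun p : List (List (A × Bool)) × List (A × Bool) =>
      FreeGroup.mk p.2 ∈ Subgroup.normalClosure (relSet p.1) := by
  have h : REPred fun p : List (List (A × Bool)) × List (A × Bool) =>
      ∃ c, certOK p.1 c ∧ FreeGroup.reduce p.2 = FreeGroup.reduce (certW c) := by
    apply re_exists
    refine PrimrecPred.computablePred (PrimrecPred.and ?_ ?_)
    · exact primrecRel_certOK.comp (fst.comp fst) snd
    · exact Primrec.eq.comp (primrec_reduce.comp (snd.comp fst))
        (primrec_reduce.comp (primrec_certW.comp snd))
  exact h.of_eq (fun p => (mem_normalClosure_iff p.1 p.2).symm)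

end Words

end Vale.Agent.P193
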