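import Vale.Agent.P193.Model

open LaurentPolynomial

namespace Vale.Agent.P193

open HallGrp

/-- number of monomials of `p` with exponent `d` and sign `e` -/
def cntZ (p : Pol) (d : ℤ) (e : Bool) : ℕ :=
  (p.filter (fun m' => decide (expo m' = d) && (m'.2 == e))).length

theorem coeff_monVal (m : Mon) (d : ℤ) :
    (monVal m).coeff d = if expo m = d then (if m.2 then 1 else -1) else 0 := by
  obtain ⟨⟨u, v⟩, f⟩ := m
  cases f
  · simp only [monVal, sgn, Bool.false_eq_true, if_false, neg_mul, one_mul]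
    rw [AddMonoidAlgebra.coeff_neg, Finsupp.neg_apply, T_apply]
    split_ifs <;> simp
  · simp only [monVal, sgn, if_true, one_mul, T_apply]

theorem coeff_polVal (p : Pol) (d : ℤ) :
    (polVal p).coeff d = (cntZ p d true : ℤ) - cntZ p d false := by
  induction p with
  | nil => simp [cntZ]
  | cons m p ih =>
    rw [polVal_cons, AddMonoidAlgebra.coeff_add, Finsupp.add_apply, ih, coeff_monVal]
    obtain ⟨⟨u, v⟩, f⟩ := m
    by_cases h : expo ((u, v), f) = d
    · cases f
      · simp [cntZ, h]; ring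
      · simp [cntZ, h]; ring
    · simp [cntZ, h]

theorem cntZ_eq_zero (p : Pol) (d : ℤ) (e : Bool) (h : ∀ m ∈ p, expo m ≠ d) : cntZ p d e = 0 := by
  rw [cntZ, List.length_eq_zero_iff, List.filter_eq_nil_iff]
  intro m hm
  simp [h m hm]

/-- same exponent, in terms of natural numbers -/
def sameE (m m' : Mon) : Prop := m.1.1 + m'.1.2 = m'.1.1 + m.1.2

instance : DecidableRel sameE := fun m m' => by unfold sameE; infer_instance

theorem sameE_iff (m m' : Mon) : sameE m m' ↔ expo m = expo m' := by
  unfold sameE expo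
  constructor
  · intro h
    have : ((m.1.1 + m'.1.2 : ℕ) : ℤ) = (m'.1.1 + m.1.2 : ℕ) := by rw [h]
    push_cast at this
    linarith
  · intro h
    have : ((m.1.1 + m'.1.2 : ℕ) : ℤ) = (m'.1.1 + m.1.2 : ℕ) := by
      push_cast; linarith
    exact_mod_cast this

/-- number of monomials of `p` with the exponent of `m` and sign `e` -/
def cnt (p : Pol) (m : Mon) (e : Bool) : ℕ :=
  (p.filter (fun m' => decide (sameE m' m ∧ m'.2 = e))).length

theorem cnt_eq (p : Pol) (m : Mon) (e : Bool) : cnt p m e = cntZ p (expo m) e := by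
  unfold cnt cntZ
  congr 1
  apply List.filter_congr
  intro m' _
  by_cases h : expo m' = expo m
  · have h2 : sameE m' m := (sameE_iff _ _).2 h
    simp only [h, h2, true_and, decide_true, Bool.true_and]
    cases m'.2 <;> cases e <;> rfl
  · have h2 : ¬ sameE m' m := fun hh => h ((sameE_iff _ _).1 hh)
    simp [h, h2]

/-- the coefficient of `p` at the exponent of `m` vanishes -/
def bal (m : Mon) (p : Pol) : Prop := cnt p m true = cnt p m false

instance : DecidableRel bal := fun m p => by unfold bal; infer_instance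

theorem bal_iff (m : Mon) (p : Pol) : bal m p ↔ (polVal p).coeff (expo m) = 0 := by
  rw [coeff_polVal, bal, cnt_eq, cnt_eq, sub_eq_zero]
  exact Nat.cast_inj.symm

theorem coeff_ne_zero_exists (p : Pol) (d : ℤ) (h : (polVal p).coeff d ≠ 0) :
    ∃ m ∈ p, expo m = d := by
  by_contra hcon
  apply h
  have h2 : ∀ m ∈ p, expo m ≠ d := fun m hm he => hcon ⟨m, hm, he⟩
  rw [coeff_polVal, cntZ_eq_zero p d _ h2, cntZ_eq_zero p d _ h2]
  simp

theorem polVal_eq_zero_iff (p : Pol) : polVal p = 0 ↔ ∀ m ∈ p, bal m p := by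
  constructor
  · intro h m _
    rw [bal_iff, h]
    rfl
  · intro h
    apply LaurentPolynomial.ext
    intro d
    by_contra hne
    have hne' : (polVal p).coeff d ≠ 0 := by simpa using hne
    obtain ⟨m, hm, rfl⟩ := coeff_ne_zero_exists p d hne'
    exact hne' ((bal_iff m p).1 (h m hm))

/-- the exponent of `m` is a natural number in `X` -/
def inX (X : ℕ → Prop) (m : Mon) : Prop := m.1.2 ≤ m.1.1 ∧ X (m.1.1 - m.1.2)

theorem inX_iff (X : ℕ → Prop) (m : Mon) : inX X m ↔ ∃ n : ℕ, expo m = n ∧ X n := by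
  unfold inX expo
  constructor
  · rintro ⟨h1, h2⟩
    exact ⟨m.1.1 - m.1.2, by push_cast [h1]; ring, h2⟩
  · rintro ⟨n, h1, h2⟩
    have h3 : m.1.1 = n + m.1.2 := by
      have : (m.1.1 : ℤ) = (n + m.1.2 : ℕ) := by push_cast; linarith
      exact_mod_cast this
    refine ⟨by omega, ?_⟩
    have : m.1.1 - m.1.2 = n := by omega
    rw [this]; exact h2

theorem supp_iff (X : ℕ → Prop) (p : Pol) :
    (∀ d : ℤ, (polVal p).coeff d ≠ 0 → ∃ n : ℕ, d = n ∧ X n) ↔
      ∀ m ∈ p.filter (fun m => decide (¬ bal m p)), inX X m := by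
  constructor
  · intro h m hm
    rw [List.mem_filter] at hm
    have h2 : ¬ bal m p := by simpa using hm.2
    rw [inX_iff]
    exact h _ (fun h0 => h2 ((bal_iff m p).2 h0))
  · intro h d hd
    obtain ⟨m, hm, rfl⟩ := coeff_ne_zero_exists p d hd
    have h2 : ¬ bal m p := fun hb => hd ((bal_iff m p).1 hb)
    have h3 : m ∈ p.filter (fun m => decide (¬ bal m p)) := by
      rw [List.mem_filter]
      exact ⟨hm, by simpa using h2⟩
    exact (inX_iff X m).1 (h m h3)

/-- The combinatorial description of the word problem of `GX X`. -/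
theorem mem_NX_iff (X : ℕ → Prop) (w : List (Fin 3 × Bool)) :
    FreeGroup.mk w ∈ NX X ↔
      ((w.foldl step init).1.1 = (w.foldl step init).1.2 ∧
        (∀ m ∈ (w.foldl step init).2.1, bal m (w.foldl step init).2.1) ∧
        (∀ m ∈ (w.foldl step init).2.2.1, bal m (w.foldl step init).2.2.1)) ∧
        ∀ m ∈ (w.foldl step init).2.2.2.filter
          (fun m => decide (¬ bal m (w.foldl step init).2.2.2)), inX X m := by
  rw [NX, Subgroup.mem_comap, ev_mk, mem_ZX]
  set s := w.foldl step init
  simp only [stVal]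
  rw [polVal_eq_zero_iff, polVal_eq_zero_iff, supp_iff, sub_eq_zero, Nat.cast_inj]
  tauto

end Vale.Agent.P193
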