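import Mathlib

namespace Vale.Agent.P193

variable {α β : Type*} [Primcodable α] [Primcodable β]

theorem cpred_and {p q : α → Prop} (hp : ComputablePred p) (hq : ComputablePred q) :
    ComputablePred fun a => p a ∧ q a := by
  obtain ⟨f, hf, rfl⟩ := ComputablePred.computable_iff.1 hp
  obtain ⟨g, hg, rfl⟩ := ComputablePred.computable_iff.1 hq
  refine ComputablePred.computable_iff.2 ⟨fun a => f a && g a, ?_, ?_⟩
  · exact (Primrec.and.to_comp).comp hf hg
  · funext a; simp

theorem cpred_comp {p : β → Prop} (hp : ComputablePred p) {f : α → β} (hf : Computable f) :
    ComputablePred fun a => p (f a) := by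
  obtain ⟨g, hg, rfl⟩ := ComputablePred.computable_iff.1 hp
  exact ComputablePred.computable_iff.2 ⟨fun a => g (f a), hg.comp hf, rfl⟩

/-- auxiliary recursion for `List.all` -/
def allUpTo (f : α → Bool) (l : List α) (n : ℕ) : Bool :=
  Nat.rec true (fun i ih => ih && (match l[i]? with | some a => f a | none => true)) n

omit [Primcodable α] in
theorem allUpTo_eq (f : α → Bool) (l : List α) (n : ℕ) :
    allUpTo f l n = (l.take n).all f := by
  induction n with
  | zero => simp [allUpTo]
  | succ n ih =>
    have h1 : allUpTo f l (n + 1) =
        (allUpTo f l n && (match l[n]? with | some a => f a | none => true)) := rfl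
    rw [h1, ih, List.take_add_one]
    cases h : l[n]? with
    | none => simp
    | some a => simp

theorem computable_allUpTo {f : α → Bool} (hf : Computable f) :
    Computable fun l : List α => allUpTo f l l.length := by
  unfold allUpTo
  refine Computable.nat_rec (f := fun l : List α => l.length) (g := fun _ => true)
    (h := fun l p => p.2 && (match l[p.1]? with | some a => f a | none => true))
    Computable.list_length (Computable.const true) ?_
  have h1 : Computable fun x : List α × ℕ × Bool => x.1[x.2.1]? :=
    Computable.list_getElem?.comp Computable.fst (Computable.fst.comp Computable.snd)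
  have h2 : Computable fun x : List α × ℕ × Bool =>
      (match x.1[x.2.1]? with | some a => f a | none => true) := by
    have := Computable.option_casesOn (o := fun x : List α × ℕ × Bool => x.1[x.2.1]?)
      (f := fun _ => true) (g := fun _ a => f a) h1 (Computable.const true)
      (hf.comp Computable.snd).to₂
    refine this.of_eq ?_
    intro x
    cases x.1[x.2.1]? <;> rfl
  exact (Primrec.and.to_comp).comp (Computable.snd.comp Computable.snd) h2

theorem cpred_forall_mem {p : α → Prop} (hp : ComputablePred p) :
    ComputablePred fun l : List α => ∀ a ∈ l, p a := by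
  obtain ⟨f, hf, rfl⟩ := ComputablePred.computable_iff.1 hp
  refine ComputablePred.computable_iff.2 ⟨fun l => allUpTo f l l.length, computable_allUpTo hf, ?_⟩
  funext l
  simp only [allUpTo_eq, List.take_length]
  simp

end Vale.Agent.P193
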