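import Vale.Agent.P193.Quot

open LaurentPolynomial
open scoped commutatorElement

namespace Vale.Agent.P193

open HallGrp

noncomputable def H1 : Subgroup HallGrp where
  carrier := {g | g.k = 0}
  one_mem' := rfl
  mul_mem' := by
    intro g h hg hh
    simp only [Set.mem_ofPred_eq] at hg hh ⊢
    simp [hg, hh]
  inv_mem' := by
    intro g hg
    simp only [Set.mem_ofPred_eq] at hg ⊢
    simp [hg]

noncomputable def H2 : Subgroup HallGrp where
  carrier := {g | g.k = 0 ∧ g.a = 0 ∧ g.b = 0}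
  one_mem' := ⟨rfl, rfl, rfl⟩
  mul_mem' := by
    rintro g h ⟨h1, h2, h3⟩ ⟨h4, h5, h6⟩
    exact ⟨by simp [h1, h4], by simp [h2, h5], by simp [h3, h6]⟩
  inv_mem' := by
    rintro g ⟨h1, h2, h3⟩
    exact ⟨by simp [h1], by simp [h2], by simp [h3]⟩

theorem comm_mem_H1 (g h : HallGrp) : ⁅g, h⁆ ∈ H1 := by
  change (⁅g, h⁆).k = 0
  rw [commutatorElement_def]
  simp

theorem comm_mem_H2 (g h : HallGrp) (hg : g ∈ H1) (hh : h ∈ H1) : ⁅g, h⁆ ∈ H2 := by
  have hg' : g.k = 0 := hg
  have hh' : h.k = 0 := hh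
  rw [commutatorElement_def]
  refine ⟨by simp, ?_, ?_⟩
  · simp [hg', hh']
  · simp [hg', hh']

theorem H2_central (z : HallGrp) (hz : z ∈ H2) (g : HallGrp) : g * z = z * g := by
  obtain ⟨h1, h2, h3⟩ := hz
  ext1
  · simp [h1]
  · simp [h1, h2]
  · simp [h1, h3]
  · simp only [mul_c, h2, h3, mul_zero, zero_mul]; ring

theorem derived1 : derivedSeries HallGrp 1 ≤ H1 := by
  rw [derivedSeries_succ, Subgroup.commutator_le]
  intro g _ h _
  exact comm_mem_H1 g h

theorem derived2 : derivedSeries HallGrp 2 ≤ H2 := by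
  rw [derivedSeries_succ, Subgroup.commutator_le]
  intro g hg h hh
  exact comm_mem_H2 g h (derived1 hg) (derived1 hh)

/-- `GX X` is centre-by-metabelian. -/
theorem GX_derived2 (X : ℕ → Prop) : derivedSeries (GX X) 2 ≤ Subgroup.center (GX X) := by
  rw [← map_derivedSeries_eq (QuotientGroup.mk'_surjective (NX X)) 2]
  rintro _ ⟨z, hz, rfl⟩
  rw [Subgroup.mem_center_iff]
  intro g
  obtain ⟨g, rfl⟩ := QuotientGroup.mk'_surjective (NX X) g
  have hz2 : ev z ∈ H2 := derived2 (map_derivedSeries_le_derivedSeries ev 2 ⟨z, hz, rfl⟩)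
  rw [← map_mul, ← map_mul]
  apply (QuotientGroup.eq_iff_div_mem (N := NX X)).2
  rw [NX, Subgroup.mem_comap, map_div, map_mul, map_mul, H2_central _ hz2, div_self']
  exact Subgroup.one_mem _

theorem GX_derived3 (X : ℕ → Prop) : derivedSeries (GX X) 3 = ⊥ := by
  rw [derivedSeries_succ, eq_bot_iff, Subgroup.commutator_le]
  intro g hg h _
  rw [Subgroup.mem_bot, commutatorElement_eq_one_iff_mul_comm]
  exact ((Subgroup.mem_center_iff.1 (GX_derived2 X hg)) h).symm

end Vale.Agent.P193
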