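import Vale.Agent.P193.Coeff

namespace Vale.Agent.P193

open Primrec

theorem primrec_shiftE : Primrec₂ shiftE := by
  unfold shiftE
  refine Primrec.cond fst ?_ ?_
  · exact Primrec.pair (succ.comp (fst.comp snd)) (snd.comp snd)
  · exact Primrec.pair (fst.comp snd) (succ.comp (snd.comp snd))

theorem primrec_shiftM : Primrec₂ shiftM := by
  unfold shiftM
  exact Primrec.pair (primrec_shiftE.comp fst (fst.comp snd)) (snd.comp snd)

theorem primrec_signM : Primrec₂ signM := by
  unfold signM
  exact Primrec.pair (fst.comp snd) (Primrec.beq.comp (snd.comp snd) fst)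

theorem primrec_step : Primrec₂ step := by
  unfold step
  refine Primrec.ite (Primrec.eq.comp (fst.comp snd) (const 0)) ?_
    (Primrec.ite (Primrec.eq.comp (fst.comp snd) (const 1)) ?_ ?_)
  · refine Primrec.pair (fst.comp fst) (Primrec.pair ?_ (snd.comp (snd.comp fst)))
    exact list_cons.comp (Primrec.pair (const (0, 0)) (snd.comp snd)) (fst.comp (snd.comp fst))
  · refine Primrec.pair (fst.comp fst) (Primrec.pair (fst.comp (snd.comp fst)) (Primrec.pair ?_ ?_))
    · exact list_cons.comp (Primrec.pair (fst.comp fst) (snd.comp snd))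
        (fst.comp (snd.comp (snd.comp fst)))
    · refine list_append.comp ?_ (snd.comp (snd.comp (snd.comp fst)))
      refine list_map (fst.comp (snd.comp fst)) ?_
      exact primrec_signM.comp (snd.comp (snd.comp fst)) snd
  · refine Primrec.pair (primrec_shiftE.comp (snd.comp snd) (fst.comp fst))
      (Primrec.pair ?_ (snd.comp (snd.comp fst)))
    refine list_map (fst.comp (snd.comp fst)) ?_
    exact primrec_shiftM.comp (snd.comp (snd.comp fst)) snd

theorem primrec_run : Primrec fun w : List (Fin 3 × Bool) => w.foldl step init := by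
  refine list_foldl (f := fun w : List (Fin 3 × Bool) => w) (g := fun _ => init)
    (h := fun _ p => step p.1 p.2) Primrec.id (const init) ?_
  exact primrec_step.comp (fst.comp snd) (snd.comp snd)

theorem primrecRel_sameE : PrimrecRel sameE := by
  unfold sameE
  exact Primrec.eq.comp (nat_add.comp (fst.comp (fst.comp fst)) (snd.comp (fst.comp snd)))
    (nat_add.comp (fst.comp (fst.comp snd)) (snd.comp (fst.comp fst)))

theorem primrec_cnt : Primrec fun x : Pol × Mon × Bool => cnt x.1 x.2.1 x.2.2 := by
  unfold cnt
  have hR : PrimrecRel fun (m' : Mon) (y : Mon × Bool) => sameE m' y.1 ∧ m'.2 = y.2 := by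
    refine PrimrecPred.and ?_ ?_
    · exact primrecRel_sameE.comp fst (fst.comp snd)
    · exact Primrec.eq.comp (snd.comp fst) (snd.comp snd)
  exact list_length.comp (hR.listFilter.comp fst snd)

theorem primrecRel_bal : PrimrecRel bal := by
  unfold bal
  refine Primrec.eq.comp ?_ ?_
  · exact primrec_cnt.comp (Primrec.pair snd (Primrec.pair fst (const true)))
  · exact primrec_cnt.comp (Primrec.pair snd (Primrec.pair fst (const false)))

theorem primrecPred_isZero : PrimrecPred fun p : Pol => ∀ m ∈ p, bal m p :=
  primrecRel_bal.forall_mem_list.comp Primrec.id Primrec.id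

theorem primrec_unbal : Primrec fun p : Pol => p.filter (fun m => decide (¬ bal m p)) :=
  primrecRel_bal.not.listFilter.comp Primrec.id Primrec.id

theorem cpred_inX {X : ℕ → Prop} (hX : ComputablePred X) : ComputablePred (inX X) := by
  unfold inX
  refine cpred_and ?_ ?_
  · exact (nat_le.comp (snd.comp fst) (fst.comp fst)).computablePred
  · exact cpred_comp hX (nat_sub.comp (fst.comp fst) (snd.comp fst)).to_comp

/-- The word problem of `GX X` is decidable when `X` is. -/
theorem wp_computable {X : ℕ → Prop} (hX : ComputablePred X) :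
    ComputablePred fun w : List (Fin 3 × Bool) => FreeGroup.mk w ∈ NX X := by
  refine ComputablePred.of_eq ?_ (fun w => (mem_NX_iff X w).symm)
  refine cpred_and ?_ ?_
  · refine PrimrecPred.computablePred ?_
    refine PrimrecPred.and ?_ (PrimrecPred.and ?_ ?_)
    · exact Primrec.eq.comp (fst.comp (fst.comp primrec_run)) (snd.comp (fst.comp primrec_run))
    · exact primrecPred_isZero.comp (fst.comp (snd.comp primrec_run))
    · exact primrecPred_isZero.comp (fst.comp (snd.comp (snd.comp primrec_run)))
  · exact cpred_comp (cpred_forall_mem (cpred_inX hX))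
      (primrec_unbal.comp (snd.comp (snd.comp (snd.comp primrec_run)))).to_comp

end Vale.Agent.P193
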