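import Vale.Agent.P193.Defs
import Vale.Agent.P193.WPComp
import Vale.Agent.P193.Solv

open scoped commutatorElement

namespace Vale.Agent.P193

section Words

variable {n : ℕ}

/-- words over `n` generators -/
abbrev W (n : ℕ) := List (Fin n × Bool)

def powW (d : ℕ) (u : W n) : W n := (List.range d).flatMap (fun _ => u)

def conjW (d : ℕ) (u0 u2 : W n) : W n := FreeGroup.invRev (powW d u2) ++ u0 ++ powW d u2

def relW (d : ℕ) (u0 u1 u2 : W n) : W n :=
  conjW d u0 u2 ++ u1 ++ FreeGroup.invRev (conjW d u0 u2) ++ FreeGroup.invRev u1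

theorem mk_powW (d : ℕ) (u : W n) : FreeGroup.mk (powW d u) = (FreeGroup.mk u) ^ d := by
  induction d with
  | zero => rfl
  | succ d ih =>
    rw [powW, List.range_succ, List.flatMap_append, ← FreeGroup.mul_mk, pow_succ, ← ih]
    simp [powW]

theorem mk_conjW (d : ℕ) (u0 u2 : W n) :
    FreeGroup.mk (conjW d u0 u2) =
      (FreeGroup.mk u2)⁻¹ ^ d * FreeGroup.mk u0 * (FreeGroup.mk u2) ^ d := by
  rw [conjW, ← FreeGroup.mul_mk, ← FreeGroup.mul_mk, ← FreeGroup.inv_mk, mk_powW, inv_pow]

theorem mk_relW (d : ℕ) (u0 u1 u2 : W n) :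
    FreeGroup.mk (relW d u0 u1 u2) =
      ⁅(FreeGroup.mk u2)⁻¹ ^ d * FreeGroup.mk u0 * (FreeGroup.mk u2) ^ d, FreeGroup.mk u1⁆ := by
  rw [relW, ← FreeGroup.mul_mk, ← FreeGroup.mul_mk, ← FreeGroup.mul_mk, ← FreeGroup.inv_mk,
    ← FreeGroup.inv_mk, mk_conjW, commutatorElement_def]

open Primrec

theorem primrec_invRev : Primrec (FreeGroup.invRev : W n → W n) := by
  unfold FreeGroup.invRev
  refine list_reverse.comp (list_map Primrec.id ?_)
  exact Primrec.pair (fst.comp snd) (Primrec.not.comp (snd.comp snd))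

theorem primrec_powW : Primrec₂ (powW : ℕ → W n → W n) := by
  unfold powW
  exact list_flatMap (list_range.comp fst) (snd.comp fst)

theorem primrec_conjW : Primrec fun x : ℕ × W n × W n => conjW x.1 x.2.1 x.2.2 := by
  unfold conjW
  have h : Primrec fun x : ℕ × W n × W n => powW x.1 x.2.2 :=
    primrec_powW.comp fst (snd.comp snd)
  exact list_append.comp (list_append.comp (primrec_invRev.comp h) (fst.comp snd)) h

theorem primrec_relW :
    Primrec fun x : ℕ × W n × W n × W n => relW x.1 x.2.1 x.2.2.1 x.2.2.2 := by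
  unfold relW
  have h : Primrec fun x : ℕ × W n × W n × W n => conjW x.1 x.2.1 x.2.2.2 :=
    primrec_conjW.comp (Primrec.pair fst (Primrec.pair (fst.comp snd) (snd.comp (snd.comp snd))))
  have h1 : Primrec fun x : ℕ × W n × W n × W n => x.2.2.1 := fst.comp (snd.comp snd)
  exact list_append.comp (list_append.comp (list_append.comp h h1) (primrec_invRev.comp h))
    (primrec_invRev.comp h1)

/-- the `d`-th test word -/
def testW (n : ℕ) (d : ℕ) : W n :=
  Option.casesOn (Encodable.decode (α := W n × W n × W n) d) []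
    (fun t => relW d t.1 t.2.1 t.2.2)

theorem primrec_testW : Primrec (testW n) := by
  unfold testW
  refine option_casesOn (o := fun d : ℕ => Encodable.decode (α := W n × W n × W n) d)
    (f := fun _ => ([] : W n)) (g := fun d t => relW d t.1 t.2.1 t.2.2) Primrec.decode (const [])
    ?_
  exact primrec_relW

end Words

section Main

variable {S : Type} [Group S] {n : ℕ} (ψ : FreeGroup (Fin n) →* S)

/-- the diagonal set -/
def diagX : ℕ → Prop := fun d => ¬ ψ (FreeGroup.mk (testW n d)) = 1

theorem cpred_diagX (hD : ComputablePred fun w : W n => ψ (FreeGroup.mk w) = 1) :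
    ComputablePred (diagX ψ) :=
  (cpred_comp hD primrec_testW.to_comp).not

theorem no_embedding_aux (hψ : Function.Surjective ψ) (X : ℕ → Prop)
    (hX : ∀ d, X d ↔ ¬ ψ (FreeGroup.mk (testW n d)) = 1) :
    ¬ ∃ f : GX X →* S, Function.Injective f := by
  rintro ⟨f, hf⟩
  have hex : ∀ i : Fin 3, ∃ u : W n,
      ψ (FreeGroup.mk u) = f (QuotientGroup.mk' (NX X) (FreeGroup.of i)) := by
    intro i
    obtain ⟨g, hg⟩ := hψ (f (QuotientGroup.mk' (NX X) (FreeGroup.of i)))
    exact ⟨g.toWord, by rw [FreeGroup.mk_toWord, hg]⟩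
  choose u hu using hex
  set d := Encodable.encode (u 0, u 1, u 2) with hd
  have htest : testW n d = relW d (u 0) (u 1) (u 2) := by
    unfold testW
    rw [hd, Encodable.encodek]
  have hval : ψ (FreeGroup.mk (testW n d)) = f (QuotientGroup.mk' (NX X) (rel d)) := by
    rw [htest, mk_relW, rel]
    simp only [map_commutatorElement, map_mul, map_pow, map_inv, hu]
  have h1 : X d ↔ ¬ f (QuotientGroup.mk' (NX X) (rel d)) = 1 := by
    rw [← hval]
    exact hX d
  have h2 : f (QuotientGroup.mk' (NX X) (rel d)) = 1 ↔ X d := by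
    rw [← rel_mem_NX X d, ← map_one f, hf.eq_iff]
    exact QuotientGroup.eq_one_iff _
  tauto

theorem no_embedding (hψ : Function.Surjective ψ) :
    ¬ ∃ f : GX (diagX ψ) →* S, Function.Injective f :=
  no_embedding_aux ψ hψ (diagX ψ) (fun _ => Iff.rfl)

theorem GX_decidableWP {X : ℕ → Prop} (hX : ComputablePred X) : HasDecidableWP (GX X) := by
  refine ⟨3, QuotientGroup.mk' (NX X), QuotientGroup.mk'_surjective _, ?_⟩
  refine ComputablePred.of_eq (wp_computable hX) ?_
  intro w
  exact (QuotientGroup.eq_one_iff _).symm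

end Main

/-- Main theorem: no finitely generated group with decidable word problem contains all 3-generated
centre-by-metabelian groups with decidable word problem. -/
theorem main_diag (S : Type) [Group S] (hS : HasDecidableWP S) :
    ∃ (G : Type) (_ : Group G), HasDecidableWP G ∧
      (∃ φ : FreeGroup (Fin 3) →* G, Function.Surjective φ) ∧
      derivedSeries G 2 ≤ Subgroup.center G ∧ derivedSeries G 3 = ⊥ ∧
      ¬ ∃ f : G →* S, Function.Injective f := by
  obtain ⟨n, ψ, hψ, hD⟩ := hS
  exact ⟨GX (diagX ψ), inferInstance, GX_decidableWP (cpred_diagX ψ hD),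
    ⟨QuotientGroup.mk' _, QuotientGroup.mk'_surjective _⟩, GX_derived2 _, GX_derived3 _,
    no_embedding ψ hψ⟩

end Vale.Agent.P193
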