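import Mathlib

open LaurentPolynomial

namespace Vale.Agent.P193

/-- The coefficient ring `ℤ[T, T⁻¹]`. -/
abbrev R := LaurentPolynomial ℤ

/-- P. Hall's group of matrices `(1 a c; 0 T^k b; 0 0 1)` over `ℤ[T, T⁻¹]`. -/
@[ext] structure HallGrp where
  k : ℤ
  a : R
  b : R
  c : R

namespace HallGrp

noncomputable instance : Mul HallGrp :=
  ⟨fun g h => ⟨g.k + h.k, h.a + g.a * T h.k, T g.k * h.b + g.b, g.c + h.c + g.a * h.b⟩⟩

noncomputable instance : One HallGrp := ⟨⟨0, 0, 0, 0⟩⟩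

noncomputable instance : Inv HallGrp :=
  ⟨fun g => ⟨-g.k, -(g.a * T (-g.k)), -(T (-g.k) * g.b), -g.c + g.a * T (-g.k) * g.b⟩⟩

@[simp] theorem mul_k (g h : HallGrp) : (g * h).k = g.k + h.k := rfl
@[simp] theorem mul_a (g h : HallGrp) : (g * h).a = h.a + g.a * T h.k := rfl
@[simp] theorem mul_b (g h : HallGrp) : (g * h).b = T g.k * h.b + g.b := rfl
@[simp] theorem mul_c (g h : HallGrp) : (g * h).c = g.c + h.c + g.a * h.b := rfl
@[simp] theorem one_k : (1 : HallGrp).k = 0 := rfl
@[simp] theorem one_a : (1 : HallGrp).a = 0 := rfl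
@[simp] theorem one_b : (1 : HallGrp).b = 0 := rfl
@[simp] theorem one_c : (1 : HallGrp).c = 0 := rfl
@[simp] theorem inv_k (g : HallGrp) : (g⁻¹).k = -g.k := rfl
@[simp] theorem inv_a (g : HallGrp) : (g⁻¹).a = -(g.a * T (-g.k)) := rfl
@[simp] theorem inv_b (g : HallGrp) : (g⁻¹).b = -(T (-g.k) * g.b) := rfl
@[simp] theorem inv_c (g : HallGrp) : (g⁻¹).c = -g.c + g.a * T (-g.k) * g.b := rfl

theorem T_neg_mul_T (k : ℤ) : (T (-k) : R) * T k = 1 := by
  rw [← T_add]; simp

theorem T_mul_T_neg (k : ℤ) : (T k : R) * T (-k) = 1 := by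
  rw [← T_add]; simp

noncomputable instance : Group HallGrp where
  mul_assoc g h l := by
    ext1
    · simp [add_assoc]
    · simp only [mul_a, mul_k, T_add]; ring
    · simp only [mul_b, mul_k, T_add]; ring
    · simp only [mul_c, mul_a, mul_b]; ring
  one_mul g := by
    ext1 <;> simp
  mul_one g := by
    ext1 <;> simp
  inv_mul_cancel g := by
    ext1
    · simp
    · simp only [mul_a, inv_a, one_a]
      have := T_neg_mul_T g.k
      linear_combination (-g.a) * this
    · simp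
    · simp only [mul_c, inv_c, inv_a, one_c]; ring

end HallGrp

end Vale.Agent.P193
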