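import Vale.Agent.P193.Defs
import Vale.Agent.P193.CertComp

namespace Vale.Agent.P193

theorem re_comp {α β : Type*} [Primcodable α] [Primcodable β] {p : β → Prop} (hp : REPred p)
    {f : α → β} (hf : Computable f) : REPred fun a => p (f a) := by
  unfold REPred at hp ⊢
  exact hp.comp hf

section

variable {A : Type} [DecidableEq A]

theorem relSet_cons (w : List (A × Bool)) (Rs : List (List (A × Bool))) :
    relSet (w :: Rs) = insert (FreeGroup.mk w) (relSet Rs) := by
  ext g
  simp [relSet]

/-- The key group-theoretic step of Kuznetsov's argument. -/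
theorem simple_step {S : Type} [Group S] [IsSimpleGroup S] (φ : FreeGroup A →* S)
    (hφ : Function.Surjective φ) (Rs : List (List (A × Bool)))
    (hker : Subgroup.normalClosure (relSet Rs) = φ.ker) (v0 : List (A × Bool))
    (hv0 : φ (FreeGroup.mk v0) ≠ 1) (w : List (A × Bool)) :
    ¬ φ (FreeGroup.mk w) = 1 ↔
      FreeGroup.mk v0 ∈ Subgroup.normalClosure (relSet (w :: Rs)) := by
  have hsub : φ.ker ≤ Subgroup.normalClosure (relSet (w :: Rs)) := by
    rw [← hker]
    apply Subgroup.normalClosure_mono
    rw [relSet_cons]
    exact Set.subset_insert _ _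
  constructor
  · intro hw
    have hnormal : ((Subgroup.normalClosure (relSet (w :: Rs))).map φ).Normal :=
      Subgroup.Normal.map Subgroup.normalClosure_normal φ hφ
    have hne : (Subgroup.normalClosure (relSet (w :: Rs))).map φ ≠ ⊥ := by
      intro hbot
      apply hw
      have : φ (FreeGroup.mk w) ∈ (Subgroup.normalClosure (relSet (w :: Rs))).map φ :=
        Subgroup.mem_map_of_mem φ (Subgroup.subset_normalClosure ⟨w, List.mem_cons_self, rfl⟩)
      rw [hbot] at this
      exact Subgroup.mem_bot.1 this
    have htop : (Subgroup.normalClosure (relSet (w :: Rs))).map φ = ⊤ :=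
      (hnormal.eq_bot_or_eq_top).resolve_left hne
    have hmem : φ (FreeGroup.mk v0) ∈ (Subgroup.normalClosure (relSet (w :: Rs))).map φ := by
      rw [htop]; exact Subgroup.mem_top _
    obtain ⟨m, hm, hmv⟩ := hmem
    have h1 : m⁻¹ * FreeGroup.mk v0 ∈ φ.ker := by
      rw [MonoidHom.mem_ker, map_mul, map_inv, hmv, inv_mul_cancel]
    have h2 := Subgroup.mul_mem _ hm (hsub h1)
    rwa [mul_inv_cancel_left] at h2
  · intro hmem hw
    apply hv0
    have hle : Subgroup.normalClosure (relSet (w :: Rs)) ≤ φ.ker := by
      apply Subgroup.normalClosure_le_normal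
      rw [relSet_cons]
      intro g hg
      rcases hg with rfl | hg
      · exact hw
      · rw [← hker]
        exact Subgroup.subset_normalClosure hg
    exact hle hmem

end

/-- Kuznetsov / Boone-Higman: a finitely presented simple group has decidable word problem. -/
theorem decidableWP_of_fp_simple (S : Type) [Group S] [IsSimpleGroup S]
    [hfp : Group.IsFinitelyPresented S] : HasDecidableWP S := by
  obtain ⟨n, φ, hφ, T, hTfin, hT⟩ := hfp.out
  refine ⟨n, φ, hφ, ?_⟩
  set Rs : List (List (Fin n × Bool)) := hTfin.toFinset.toList.map FreeGroup.toWord with hRs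
  have hrel : relSet Rs = T := by
    ext g
    simp only [relSet, hRs, List.mem_map, Finset.mem_toList, Set.Finite.mem_toFinset,
      Set.mem_ofPred_eq]
    constructor
    · rintro ⟨r, ⟨t, ht, rfl⟩, rfl⟩
      rwa [FreeGroup.mk_toWord]
    · intro hg
      exact ⟨g.toWord, ⟨g, hg, rfl⟩, FreeGroup.mk_toWord.symm⟩
  have hker : Subgroup.normalClosure (relSet Rs) = φ.ker := by rw [hrel, hT]
  obtain ⟨s, hs⟩ := exists_ne (1 : S)
  obtain ⟨g0, hg0⟩ := hφ s
  have hv0 : φ (FreeGroup.mk g0.toWord) ≠ 1 := by rw [FreeGroup.mk_toWord, hg0]; exact hs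
  rw [ComputablePred.computable_iff_re_compl_re']
  constructor
  · have h := re_comp (re_normalClosure (A := Fin n))
      (f := fun w : List (Fin n × Bool) => (Rs, w))
      (Computable.pair (Computable.const Rs) Computable.id)
    refine h.of_eq ?_
    intro w
    rw [hker, MonoidHom.mem_ker]
  · have h := re_comp (re_normalClosure (A := Fin n))
      (f := fun w : List (Fin n × Bool) => (w :: Rs, g0.toWord))
      (Computable.pair (Computable.list_cons.comp Computable.id (Computable.const Rs))
        (Computable.const _))
    refine h.of_eq ?_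
    intro w
    exact (simple_step φ hφ Rs hker g0.toWord hv0 w).symm

end Vale.Agent.P193
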