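import Vale.Agent.P193.Quot
import Vale.Agent.P193.CompTools

open LaurentPolynomial

namespace Vale.Agent.P193

open HallGrp

/-- A signed monomial `± T^(u - v)`, coded as `((u, v), sign)`. -/
abbrev Mon := (ℕ × ℕ) × Bool
abbrev Pol := List Mon
abbrev St := (ℕ × ℕ) × Pol × Pol × Pol

def expo (m : Mon) : ℤ := (m.1.1 : ℤ) - m.1.2

noncomputable def sgn (e : Bool) : R := if e then 1 else -1

noncomputable def monVal (m : Mon) : R := sgn m.2 * T (expo m)

noncomputable def polVal (p : Pol) : R := (p.map monVal).sum

@[simp] theorem polVal_nil : polVal [] = 0 := rfl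
@[simp] theorem polVal_cons (m : Mon) (p : Pol) : polVal (m :: p) = monVal m + polVal p := by
  simp [polVal]
@[simp] theorem polVal_append (p q : Pol) : polVal (p ++ q) = polVal p + polVal q := by
  simp [polVal]

noncomputable def stVal (s : St) : HallGrp :=
  ⟨(s.1.1 : ℤ) - s.1.2, polVal s.2.1, polVal s.2.2.1, polVal s.2.2.2⟩

/-- shift an exponent by `±1` -/
def shiftE (e : Bool) (p : ℕ × ℕ) : ℕ × ℕ := cond e (p.1 + 1, p.2) (p.1, p.2 + 1)

def shiftM (e : Bool) (m : Mon) : Mon := (shiftE e m.1, m.2)

def signM (e : Bool) (m : Mon) : Mon := (m.1, m.2 == e)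

/-- one step of the evaluation: multiply on the right by a letter. -/
def step (s : St) (l : Fin 3 × Bool) : St :=
  if l.1 = 0 then (s.1, ((0, 0), l.2) :: s.2.1, s.2.2.1, s.2.2.2)
  else if l.1 = 1 then (s.1, s.2.1, (s.1, l.2) :: s.2.2.1, s.2.1.map (signM l.2) ++ s.2.2.2)
  else (shiftE l.2 s.1, s.2.1.map (shiftM l.2), s.2.2.1, s.2.2.2)

def init : St := ((0, 0), [], [], [])

/-- the letter as a group element -/
noncomputable def letVal (l : Fin 3 × Bool) : HallGrp := cond l.2 (gen l.1) (gen l.1)⁻¹

theorem polVal_map_signM (e : Bool) (p : Pol) : polVal (p.map (signM e)) = polVal p * sgn e := by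
  induction p with
  | nil => simp
  | cons m p ih =>
    simp only [List.map_cons, polVal_cons, ih, add_mul]
    congr 1
    obtain ⟨⟨u, v⟩, f⟩ := m
    cases e <;> cases f <;> simp [monVal, signM, sgn, expo]

theorem polVal_map_shiftM (e : Bool) (p : Pol) :
    polVal (p.map (shiftM e)) = polVal p * T (if e then 1 else -1) := by
  induction p with
  | nil => simp
  | cons m p ih =>
    simp only [List.map_cons, polVal_cons, ih, add_mul]
    congr 1
    obtain ⟨⟨u, v⟩, f⟩ := m
    cases e
    · simp only [monVal, shiftM, shiftE, expo, cond_false, Bool.false_eq_true, if_false, mul_assoc,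
        ← T_add]
      congr 2
      push_cast; ring
    · simp only [monVal, shiftM, shiftE, expo, cond_true, if_true, mul_assoc, ← T_add]
      congr 2
      push_cast; ring

theorem stVal_step (s : St) (l : Fin 3 × Bool) : stVal (step s l) = stVal s * letVal l := by
  obtain ⟨i, e⟩ := l
  fin_cases i
  · cases e
    · ext1 <;> simp [step, stVal, letVal, gen, gx, monVal, sgn, expo]
    · ext1 <;> simp [step, stVal, letVal, gen, gx, monVal, sgn, expo]
  · cases e
    · ext1 <;> simp [step, stVal, letVal, gen, gy, monVal, sgn, expo, polVal_map_signM]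
      ring
    · ext1 <;> simp [step, stVal, letVal, gen, gy, monVal, sgn, expo, polVal_map_signM]
      ring
  · cases e
    · ext1 <;> simp [step, stVal, letVal, gen, gs, polVal_map_shiftM, shiftE]
      ring
    · ext1 <;> simp [step, stVal, letVal, gen, gs, polVal_map_shiftM, shiftE]
      ring

theorem stVal_foldl (w : List (Fin 3 × Bool)) (s : St) :
    stVal (w.foldl step s) = stVal s * ev (FreeGroup.mk w) := by
  induction w generalizing s with
  | nil =>
    simp only [List.foldl_nil]
    have : (FreeGroup.mk ([] : List (Fin 3 × Bool))) = 1 := rfl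
    rw [this, map_one, mul_one]
  | cons l w ih =>
    rw [List.foldl_cons, ih, stVal_step, mul_assoc]
    congr 1

theorem stVal_init : stVal init = 1 := by
  ext1 <;> simp [stVal, init]

theorem ev_mk (w : List (Fin 3 × Bool)) : ev (FreeGroup.mk w) = stVal (w.foldl step init) := by
  rw [stVal_foldl, stVal_init, one_mul]

end Vale.Agent.P193
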