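import Vale.Agent.P193.Hall

open LaurentPolynomial
open scoped commutatorElement

namespace Vale.Agent.P193

namespace HallGrp

/-- The three generators. -/
noncomputable def gx : HallGrp := ⟨0, 1, 0, 0⟩
noncomputable def gy : HallGrp := ⟨0, 0, 1, 0⟩
noncomputable def gs : HallGrp := ⟨1, 0, 0, 0⟩

/-- generator indexed by `Fin 3` -/
noncomputable def gen : Fin 3 → HallGrp := ![gx, gy, gs]

/-- The central subgroup of all `(1 0 c; 0 1 0; 0 0 1)` such that every exponent occurring in `c`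
is a natural number in `X`. -/
noncomputable def ZX (X : ℕ → Prop) : Subgroup HallGrp where
  carrier := {g | g.k = 0 ∧ g.a = 0 ∧ g.b = 0 ∧
    ∀ d : ℤ, g.c.coeff d ≠ 0 → ∃ n : ℕ, d = n ∧ X n}
  one_mem' := by
    refine ⟨rfl, rfl, rfl, ?_⟩
    intro d hd
    exact absurd rfl hd
  mul_mem' := by
    rintro g h ⟨hg1, hg2, hg3, hg4⟩ ⟨hh1, hh2, hh3, hh4⟩
    refine ⟨by simp [hg1, hh1], by simp [hg2, hh2], by simp [hg3, hh3], ?_⟩
    intro d hd
    simp only [mul_c, hg2, zero_mul, add_zero] at hd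
    by_cases h1 : g.c.coeff d = 0
    · by_cases h2 : h.c.coeff d = 0
      · exfalso
        apply hd
        simp [h1, h2]
      · exact hh4 d h2
    · exact hg4 d h1
  inv_mem' := by
    rintro g ⟨hg1, hg2, hg3, hg4⟩
    refine ⟨by simp [hg1], by simp [hg2], by simp [hg3], ?_⟩
    intro d hd
    simp only [inv_c, hg2, zero_mul, add_zero] at hd
    apply hg4 d
    intro h0
    apply hd
    simp [h0]

theorem mem_ZX {X : ℕ → Prop} {g : HallGrp} : g ∈ ZX X ↔ g.k = 0 ∧ g.a = 0 ∧ g.b = 0 ∧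
    ∀ d : ℤ, g.c.coeff d ≠ 0 → ∃ n : ℕ, d = n ∧ X n := Iff.rfl

theorem ZX_central {X : ℕ → Prop} {z : HallGrp} (hz : z ∈ ZX X) (g : HallGrp) : g * z = z * g := by
  obtain ⟨h1, h2, h3, _⟩ := hz
  ext1
  · simp [h1]
  · simp [h1, h2]
  · simp [h1, h3]
  · simp only [mul_c, h2, h3, mul_zero, zero_mul]; ring

instance ZX_normal (X : ℕ → Prop) : (ZX X).Normal where
  conj_mem z hz g := by
    rw [ZX_central hz g, mul_assoc, mul_inv_cancel, mul_one]
    exact hz

end HallGrp

open HallGrp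

/-- Evaluation of words in the three generators. -/
noncomputable def ev : FreeGroup (Fin 3) →* HallGrp := FreeGroup.lift gen

/-- The normal subgroup of the free group defining `GX X`. -/
noncomputable def NX (X : ℕ → Prop) : Subgroup (FreeGroup (Fin 3)) := (ZX X).comap ev

instance NX_normal (X : ℕ → Prop) : (NX X).Normal := by
  unfold NX; infer_instance

/-- The 3-generated group `GX X`: the image of the free group in `HallGrp / ZX X`. -/
abbrev GX (X : ℕ → Prop) : Type := FreeGroup (Fin 3) ⧸ NX X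

theorem gs_zpow (n : ℤ) : gs ^ n = ⟨n, 0, 0, 0⟩ := by
  have hnat : ∀ m : ℕ, gs ^ m = ⟨m, 0, 0, 0⟩ := by
    intro m
    induction m with
    | zero => rfl
    | succ m ih =>
      rw [pow_succ, ih]
      ext1 <;> simp [gs]
  cases n with
  | ofNat m => simpa using hnat m
  | negSucc m =>
    rw [zpow_negSucc, hnat]
    ext1 <;> simp [Int.negSucc_eq]

/-- The relator `r_d = [s^{-d} x s^d, y]` in the free group. -/
def rel (d : ℕ) : FreeGroup (Fin 3) :=
  ⁅(FreeGroup.of (2 : Fin 3))⁻¹ ^ d * FreeGroup.of (0 : Fin 3) * (FreeGroup.of (2 : Fin 3)) ^ d,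
    FreeGroup.of (1 : Fin 3)⁆

theorem ev_rel (d : ℕ) : ev (rel d) = ⟨0, 0, 0, T d⟩ := by
  have h0 : ev (FreeGroup.of 0) = gx := by simp [ev, gen]
  have h1 : ev (FreeGroup.of 1) = gy := by simp [ev, gen]
  have h2 : ev (FreeGroup.of 2) = gs := by simp [ev, gen]
  have h3 : gs ^ d = ⟨d, 0, 0, 0⟩ := by
    have := gs_zpow d
    simpa using this
  have h4 : (gs⁻¹) ^ d = ⟨-d, 0, 0, 0⟩ := by
    have := gs_zpow (-d)
    simpa using this
  rw [rel, map_commutatorElement, map_mul, map_mul, map_pow, map_pow, map_inv, h0, h1, h2, h3, h4,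
    commutatorElement_def]
  ext1 <;> simp [gx, gy]

theorem rel_mem_NX (X : ℕ → Prop) (d : ℕ) : rel d ∈ NX X ↔ X d := by
  rw [NX, Subgroup.mem_comap, ev_rel, mem_ZX]
  constructor
  · rintro ⟨_, _, _, h⟩
    obtain ⟨n, hn, hX⟩ := h d (by simp)
    have : d = n := by exact_mod_cast hn
    rw [this]; exact hX
  · intro hX
    refine ⟨rfl, rfl, rfl, ?_⟩
    intro e he
    simp only [T_apply, ne_eq, ite_eq_right_iff, one_ne_zero, imp_false, not_not] at he
    exact ⟨d, he.symm, hX⟩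

end Vale.Agent.P193
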